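import Mathlib

/-!
Shared definitions for P037 (ordered binary matrix removal), for 2 x 2 patterns.
Rows and columns are indexed by `Fin n` in the natural order.
-/

namespace Vale.Agent.Lib.P037

/-- Binary `n x n` matrices. -/
abbrev BMat (n : ℕ) : Type := Fin n → Fin n → Bool

/-- `(i, j, c, d)` is an ordered copy of the `2 x 2` pattern `H` in `A`:
rows `i < j`, columns `c < d`, and the four entries agree with `H`
(zeros are matched as well as ones). -/
def IsCopy {n : ℕ} (H : Fin 2 → Fin 2 → Bool) (A : BMat n) (i j c d : Fin n) : Prop :=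
  i < j ∧ c < d ∧ A i c = H 0 0 ∧ A i d = H 0 1 ∧ A j c = H 1 0 ∧ A j d = H 1 1

instance {n : ℕ} (H : Fin 2 → Fin 2 → Bool) (A : BMat n) (i j c d : Fin n) :
    Decidable (IsCopy H A i j c d) := by
  unfold IsCopy
  infer_instance

/-- The set of ordered copies of `H` in `A`, as quadruples `(i, j, c, d)`. -/
def copySet {n : ℕ} (H : Fin 2 → Fin 2 → Bool) (A : BMat n) :
    Finset (Fin n × Fin n × Fin n × Fin n) :=
  Finset.univ.filter fun q => IsCopy H A q.1 q.2.1 q.2.2.1 q.2.2.2

/-- `N_H(A)`: the number of ordered copies of `H` in `A`. -/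
def numCopies {n : ℕ} (H : Fin 2 → Fin 2 → Bool) (A : BMat n) : ℕ :=
  (copySet H A).card

/-- `A` is `H`-free: it has no ordered copy of `H`. -/
def IsFree {n : ℕ} (H : Fin 2 → Fin 2 → Bool) (A : BMat n) : Prop :=
  ∀ i j c d : Fin n, ¬ IsCopy H A i j c d

/-- The number of entries in which `A` and `B` differ. -/
def hammingDist {n : ℕ} (A B : BMat n) : ℕ :=
  (Finset.univ.filter fun p : Fin n × Fin n => A p.1 p.2 ≠ B p.1 p.2).card

/-- The four entries (positions) used by the quadruple `(i, j, c, d)`. -/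
def entriesOf {n : ℕ} (q : Fin n × Fin n × Fin n × Fin n) : Finset (Fin n × Fin n) :=
  {(q.1, q.2.2.1), (q.1, q.2.2.2), (q.2.1, q.2.2.1), (q.2.1, q.2.2.2)}

/-- The pattern `I_2 = [[1, 0], [0, 1]]`. -/
def patI2 : Fin 2 → Fin 2 → Bool := fun a b => decide (a = b)

end Vale.Agent.Lib.P037
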